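import Mathlib

/-! Compact complex surfaces of class VII, Betti numbers and rational curves. -/

open scoped Manifold ContDiff Topology
open Filter

noncomputable section

namespace Vale.Agent.P267R

abbrev C2 := Fin 2 → ℂ

section Topology
variable (X : Type) [TopologicalSpace X]

variable {X} in
/-- `f` is constant near `p`. -/
def ConstAt (f : X → ℂ) (p : X) : Prop := ∀ᶠ q in 𝓝 p, f q = f p

/-- Global sections of (all functions) modulo (locally constant functions); `f p` represents the
germ at `p`. -/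
def Zc : Submodule ℂ (X → X → ℂ) :=
  Submodule.span ℂ {f | ∀ p, ∀ᶠ q in 𝓝 p, ConstAt (f p - f q) q}

/-- Those that come from a global function. -/
def Bc : Submodule ℂ (X → X → ℂ) :=
  Submodule.span ℂ {f | ∃ s : X → ℂ, ∀ p, ConstAt (f p - s) p}

/-- The first Betti number: the dimension of the first cohomology of the constant sheaf `ℂ`. -/
def b1 : ℕ := Module.finrank ℂ (Zc X ⧸ (Bc X).submoduleOf (Zc X))

end Topology

/-- The exterior derivative of a one-form on affine space. -/
def extD (A : C2 → C2 →L[ℝ] ℂ) (z v w : C2) : ℂ :=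
  fderiv ℝ (fun y => A y w) z v - fderiv ℝ (fun y => A y v) z w

/-- The exterior derivative of a two-form on affine space. -/
def extD2 (A : C2 → C2 → C2 → ℂ) (z u v w : C2) : ℂ :=
  fderiv ℝ (fun y => A y v w) z u + fderiv ℝ (fun y => A y w u) z v +
    fderiv ℝ (fun y => A y u v) z w

section Forms
variable {X : Type} [TopologicalSpace X] [ChartedSpace C2 X]

/-- The expression in the chart `P` of a one-form, given at each `x` in the chart at `x`. -/
def inChart (P : OpenPartialHomeomorph X C2) (θ : X → C2 →L[ℝ] ℂ) (z : C2) : C2 →L[ℝ] ℂ :=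
  (θ (P.symm z)).comp (fderiv ℝ (chartAt C2 (P.symm z) ∘ P.symm) z)

/-- The expression in the chart `P` of a two-form, given at each `x` in the chart at `x`. -/
def inChart2 (P : OpenPartialHomeomorph X C2) (α : X → C2 → C2 → ℂ) (z v w : C2) : ℂ :=
  α (P.symm z) (fderiv ℝ (chartAt C2 (P.symm z) ∘ P.symm) z v)
    (fderiv ℝ (chartAt C2 (P.symm z) ∘ P.symm) z w)

/-- Smooth one-forms. -/
def Sm1 (θ : X → C2 →L[ℝ] ℂ) : Prop :=
  ∀ p v, ∀ᶠ z in 𝓝 (chartAt C2 p p), ContDiffAt ℝ ∞ (fun y => inChart (chartAt C2 p) θ y v) z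

/-- Smooth two-forms: bilinear, alternating, with smooth coefficients. -/
def Sm2 (α : X → C2 → C2 → ℂ) : Prop :=
  (∀ x, ∃ B : C2 →L[ℝ] C2 →L[ℝ] ℂ, (∀ v, B v v = 0) ∧ ∀ v w, α x v w = B v w) ∧
  ∀ p v w, ∀ᶠ z in 𝓝 (chartAt C2 p p),
    ContDiffAt ℝ ∞ (fun y => inChart2 (chartAt C2 p) α y v w) z

/-- Closed smooth two-forms. -/
def Closed2 (α : X → C2 → C2 → ℂ) : Prop :=
  Sm2 α ∧ ∀ p u v w, extD2 (inChart2 (chartAt C2 p) α) (chartAt C2 p p) u v w = 0

/-- `α = dθ`. -/
def IsD (θ : X → C2 →L[ℝ] ℂ) (α : X → C2 → C2 → ℂ) : Prop :=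
  ∀ p v w, α p v w = extD (inChart (chartAt C2 p) θ) (chartAt C2 p p) v w

/-- `f` is holomorphic near `p`. -/
def HolAt (f : X → ℂ) (p : X) : Prop :=
  AnalyticAt ℂ (f ∘ (chartAt C2 p).symm) (chartAt C2 p p)

/-- Holomorphic sections of a line bundle. Every fibre is identified with `ℂ` in an arbitrary
way, so a section is a function `s : X → ℂ`; its expression in the local frame chosen near `p` is
`u p * s`. -/
def H0 (u : X → X → ℂ) : Submodule ℂ (X → ℂ) := Submodule.span ℂ {s | ∀ p, HolAt (u p * s) p}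

/-- A rational curve: the image of a nonconstant holomorphic map from the Riemann sphere. -/
def IsRationalCurve (C : Set X) : Prop :=
  ∃ ν : C(OnePoint ℂ, X), MDifferentiable 𝓘(ℂ, ℂ) 𝓘(ℂ, C2) (fun z : ℂ => ν z) ∧
    (∃ a b, ν a ≠ ν b) ∧ C = Set.range ν

end Forms

section Surface
variable (X : Type) [TopologicalSpace X] [ChartedSpace C2 X]

/-- The canonical bundle: a two-form is `s q • dz` at `q`, for the chart `z` at `q`. -/
def canon : X → X → ℂ := fun p q =>
  (fderiv ℂ (chartAt C2 q ∘ (chartAt C2 p).symm) (chartAt C2 p q)).det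

/-- Closed two-forms. -/
def Z2 : Submodule ℂ (X → C2 → C2 → ℂ) := Submodule.span ℂ {α | Closed2 α}

/-- Exact two-forms. -/
def B2 : Submodule ℂ (X → C2 → C2 → ℂ) := Submodule.span ℂ {α | ∃ θ, Sm1 θ ∧ IsD θ α}

/-- The second Betti number: the dimension of the second de Rham cohomology group. -/
def b2 : ℕ := Module.finrank ℂ (Z2 X ⧸ (B2 X).submoduleOf (Z2 X))

/-- A surface: a connected compact complex manifold of dimension two. -/
def IsSurface : Prop :=
  IsManifold 𝓘(ℂ, C2) ω X ∧ T2Space X ∧ CompactSpace X ∧ ConnectedSpace X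

/-- Class VII: the first Betti number is one and all plurigenera vanish. -/
def IsClassVII : Prop := b1 X = 1 ∧ ∀ m : ℕ, 1 ≤ m → H0 (canon X ^ m) = ⊥

/-- `X` contains `b₂` rational curves. -/
def HasCurves : Prop :=
  ∃ C : Fin (b2 X) → Set X, Function.Injective C ∧ ∀ i, IsRationalCurve (C i)

end Surface

end Vale.Agent.P267R
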